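import Mathlib.Analysis.Convex.Segment
import Mathlib.Topology.Order.IntermediateValue
import Mathlib.Topology.Instances.Real.Lemmas
import Mathlib.Data.ZMod.Basic
import Mathlib.Tactic

/-! P305 (helper712): the mod 2 crossing number of two disjoint segments of the plane, computed
from the positions of the four end points, is zero. -/

namespace Vale.Agent.P305.H712

/-- height over `x` of the line through `p` and `q` -/
noncomputable def lineAt (p q : ℝ × ℝ) (x : ℝ) : ℝ := p.2 + (q.2 - p.2) / (q.1 - p.1) * (x - p.1)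

open Classical in
/-- `1` if `r` lies strictly between `p` and `q` horizontally and strictly below the line `pq` -/
noncomputable def chi (p q r : ℝ × ℝ) : ZMod 2 :=
  if ((p.1 < r.1 ∧ r.1 < q.1) ∨ (q.1 < r.1 ∧ r.1 < p.1)) ∧ r.2 < lineAt p q r.1 then 1 else 0

open Classical in
/-- `1` if `p` is to the left of `r` -/
noncomputable def lt2 (p r : ℝ × ℝ) : ZMod 2 := if p.1 < r.1 then 1 else 0

/-- the mod 2 crossing number of two segments -/
noncomputable def crE (p q r s : ℝ × ℝ) : ZMod 2 :=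
  chi p q r + chi p q s + chi r s p + chi r s q + (lt2 p r + lt2 p s + lt2 q r + lt2 q s)

theorem lineAt_left (p q : ℝ × ℝ) : lineAt p q p.1 = p.2 := by simp [lineAt]

theorem lineAt_right {p q : ℝ × ℝ} (h : p.1 ≠ q.1) : lineAt p q q.1 = q.2 := by
  have h1 : q.1 - p.1 ≠ 0 := sub_ne_zero.2 (Ne.symm h)
  rw [lineAt, div_mul_cancel₀ _ h1]; ring

theorem lineAt_comm {p q : ℝ × ℝ} (h : p.1 ≠ q.1) (x : ℝ) : lineAt p q x = lineAt q p x := by
  have h1 : q.1 - p.1 ≠ 0 := sub_ne_zero.2 (Ne.symm h)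
  have h2 : p.1 - q.1 ≠ 0 := sub_ne_zero.2 h
  unfold lineAt
  field_simp
  ring

theorem chi_comm {p q : ℝ × ℝ} (h : p.1 ≠ q.1) (r : ℝ × ℝ) : chi p q r = chi q p r := by
  unfold chi
  rw [lineAt_comm h]
  congr 1
  rw [or_comm]

theorem continuous_lineAt (p q : ℝ × ℝ) : Continuous (lineAt p q) := by
  unfold lineAt
  fun_prop

/-- the point of the line over `x` lies on the segment -/
theorem mem_seg {p q : ℝ × ℝ} (h : p.1 < q.1) {x : ℝ} (h1 : p.1 ≤ x) (h2 : x ≤ q.1) :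
    (x, lineAt p q x) ∈ segment ℝ p q := by
  have h3 : 0 < q.1 - p.1 := sub_pos.2 h
  refine ⟨(q.1 - x) / (q.1 - p.1), (x - p.1) / (q.1 - p.1),
    div_nonneg (sub_nonneg.2 h2) h3.le, div_nonneg (sub_nonneg.2 h1) h3.le, ?_, ?_⟩
  · field_simp; ring
  · ext
    · simp only [Prod.fst_add, Prod.smul_fst, smul_eq_mul]
      field_simp; ring
    · simp only [Prod.snd_add, Prod.smul_snd, smul_eq_mul, lineAt]
      field_simp; ring

theorem ne_of_disj {p q r s : ℝ × ℝ} (hpq : p.1 < q.1) (hrs : r.1 < s.1)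
    (hd : Disjoint (segment ℝ p q) (segment ℝ r s)) {x : ℝ} (h1 : p.1 ≤ x) (h2 : x ≤ q.1)
    (h3 : r.1 ≤ x) (h4 : x ≤ s.1) : lineAt p q x ≠ lineAt r s x := by
  intro h
  have h5 := mem_seg hpq h1 h2
  have h6 := mem_seg hrs h3 h4
  rw [← h] at h6
  exact Set.disjoint_left.1 hd h5 h6

/-- the two segments have the same vertical order over the whole overlap -/
theorem same_side {p q r s : ℝ × ℝ} (hpq : p.1 < q.1) (hrs : r.1 < s.1)
    (hd : Disjoint (segment ℝ p q) (segment ℝ r s)) {a b : ℝ} (hab : a ≤ b) (h1 : p.1 ≤ a)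
    (h2 : b ≤ q.1) (h3 : r.1 ≤ a) (h4 : b ≤ s.1) :
    (lineAt r s a < lineAt p q a ↔ lineAt r s b < lineAt p q b) := by
  have hne : ∀ x ∈ Set.Icc a b, lineAt p q x - lineAt r s x ≠ 0 := fun x hx =>
    sub_ne_zero.2 (ne_of_disj hpq hrs hd (h1.trans hx.1) (hx.2.trans h2) (h3.trans hx.1)
      (hx.2.trans h4))
  have hc : ContinuousOn (fun x => lineAt p q x - lineAt r s x) (Set.Icc a b) :=
    ((continuous_lineAt p q).sub (continuous_lineAt r s)).continuousOn
  constructor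
  · intro h
    by_contra h5
    have h6 := intermediate_value_Icc' hab hc
    have h7 : (0 : ℝ) ∈ Set.Icc (lineAt p q b - lineAt r s b) (lineAt p q a - lineAt r s a) :=
      ⟨by linarith [not_lt.1 h5], by linarith⟩
    obtain ⟨x, hx, hx0⟩ := h6 h7
    exact hne x hx hx0
  · intro h
    by_contra h5
    have h6 := intermediate_value_Icc hab hc
    have h7 : (0 : ℝ) ∈ Set.Icc (lineAt p q a - lineAt r s a) (lineAt p q b - lineAt r s b) :=
      ⟨by linarith [not_lt.1 h5], by linarith⟩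
    obtain ⟨x, hx, hx0⟩ := h6 h7
    exact hne x hx hx0

open Classical in
theorem chi_between {p q r : ℝ × ℝ} (h1 : p.1 < r.1) (h2 : r.1 < q.1) :
    chi p q r = if r.2 < lineAt p q r.1 then 1 else 0 := by
  unfold chi
  simp [h1, h2]

theorem chi_left {p q r : ℝ × ℝ} (h0 : p.1 < q.1) (h1 : r.1 < p.1) : chi p q r = 0 := by
  unfold chi
  rw [if_neg]
  rintro ⟨h | h, -⟩
  · linarith [h.1]
  · linarith [h.1]

theorem chi_right {p q r : ℝ × ℝ} (h0 : p.1 < q.1) (h1 : q.1 < r.1) : chi p q r = 0 := by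
  unfold chi
  rw [if_neg]
  rintro ⟨h | h, -⟩
  · linarith [h.2]
  · linarith [h.2]

theorem lt2_pos {p r : ℝ × ℝ} (h : p.1 < r.1) : lt2 p r = 1 := by
  unfold lt2; rw [if_pos h]

theorem lt2_neg {p r : ℝ × ℝ} (h : r.1 < p.1) : lt2 p r = 0 := by
  unfold lt2; rw [if_neg (not_lt.2 h.le)]

theorem ite_add_ite_not {P Q : Prop} [Decidable P] [Decidable Q] (h : P ↔ ¬ Q) :
    ((if P then 1 else 0) + (if Q then 1 else 0) : ZMod 2) = 1 := by
  by_cases hQ : Q
  · rw [if_pos hQ, if_neg (fun hP => h.1 hP hQ), zero_add]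
  · rw [if_neg hQ, if_pos (h.2 hQ), add_zero]

theorem ite_add_ite_iff {P Q : Prop} [Decidable P] [Decidable Q] (h : P ↔ Q) :
    ((if P then 1 else 0) + (if Q then 1 else 0) : ZMod 2) = 0 := by
  by_cases hQ : Q
  · rw [if_pos hQ, if_pos (h.2 hQ)]; decide
  · rw [if_neg hQ, if_neg (fun hP => hQ (h.1 hP)), zero_add]

/-- the ordered case -/
theorem crE_aux {p q r s : ℝ × ℝ} (hpq : p.1 < q.1) (hrs : r.1 < s.1) (hpr : p.1 ≠ r.1)
    (hps : p.1 ≠ s.1) (hqr : q.1 ≠ r.1) (hqs : q.1 ≠ s.1)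
    (hd : Disjoint (segment ℝ p q) (segment ℝ r s)) : crE p q r s = 0 := by
  classical
  have hs : ∀ {a b : ℝ}, a ≤ b → p.1 ≤ a → b ≤ q.1 → r.1 ≤ a → b ≤ s.1 →
      (lineAt r s a < lineAt p q a ↔ lineAt r s b < lineAt p q b) :=
    fun h0 h1 h2 h3 h4 => same_side hpq hrs hd h0 h1 h2 h3 h4
  have hn : ∀ {x : ℝ}, p.1 ≤ x → x ≤ q.1 → r.1 ≤ x → x ≤ s.1 → lineAt p q x ≠ lineAt r s x :=
    fun h1 h2 h3 h4 => ne_of_disj hpq hrs hd h1 h2 h3 h4
  have lp := lineAt_left p q
  have lq := lineAt_right hpq.ne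
  have lr := lineAt_left r s
  have ls := lineAt_right hrs.ne
  have e4 : (1 + 1 + 1 + 1 : ZMod 2) = 0 := by decide
  have e3 : (1 + (1 + 1 + 0 + 1) : ZMod 2) = 0 := by decide
  have e1 : (1 + (0 + 1 + 0 + 0) : ZMod 2) = 0 := by decide
  have e2 : (1 + 1 + 0 + 0 : ZMod 2) = 0 := by decide
  have e2' : (0 + 1 + 0 + 1 : ZMod 2) = 0 := by decide
  unfold crE
  rcases lt_or_gt_of_ne hpr with h1 | h1 <;> rcases lt_or_gt_of_ne hps with h2 | h2 <;>
    rcases lt_or_gt_of_ne hqr with h3 | h3 <;> rcases lt_or_gt_of_ne hqs with h4 | h4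
  · -- p < q < r < s
    rw [chi_right hpq h3, chi_right hpq h4, chi_left hrs h1, chi_left hrs h3, lt2_pos h1,
      lt2_pos h2, lt2_pos h3, lt2_pos h4]
    rw [e4]; ring
  · exact absurd (hrs.trans h4) (not_lt.2 h3.le)
  · -- p < r < q < s
    rw [chi_between h1 h3, chi_right hpq h4, chi_left hrs h1, chi_between h3 h4, lt2_pos h1,
      lt2_pos h2, lt2_neg h3, lt2_pos h4, add_zero, add_zero]
    have h5 := hs h3.le h1.le le_rfl le_rfl h4.le
    have h6 := hn hpq.le le_rfl h3.le h4.le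
    rw [lr, lq] at h5
    rw [lq] at h6
    rw [ite_add_ite_not (h5.trans ⟨fun h => not_lt.2 h.le, fun h =>
      lt_of_le_of_ne (not_lt.1 h) (Ne.symm h6)⟩), e3]
  · -- p < r < s < q
    rw [chi_between h1 h3, chi_between h2 h4, chi_left hrs h1, chi_right hrs h4, lt2_pos h1,
      lt2_pos h2, lt2_neg h3, lt2_neg h4, add_zero, add_zero]
    have h5 := hs hrs.le h1.le h4.le le_rfl le_rfl
    rw [lr, ls] at h5
    rw [ite_add_ite_iff h5, e2]; ring
  · exact absurd (h1.trans hrs) (not_lt.2 h2.le)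
  · exact absurd (h1.trans hrs) (not_lt.2 h2.le)
  · exact absurd (h1.trans hrs) (not_lt.2 h2.le)
  · exact absurd (h1.trans hrs) (not_lt.2 h2.le)
  · exact absurd (h1.trans hpq) (not_lt.2 h3.le)
  · exact absurd (h1.trans hpq) (not_lt.2 h3.le)
  · -- r < p < q < s
    rw [chi_left hpq h1, chi_right hpq h4, chi_between h1 h2, chi_between h3 h4, lt2_neg h1,
      lt2_pos h2, lt2_neg h3, lt2_pos h4, zero_add, zero_add]
    have h5 := hs hpq.le le_rfl le_rfl h1.le h4.le
    have h6 := hn le_rfl hpq.le h1.le h2.le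
    have h7 := hn hpq.le le_rfl h3.le h4.le
    rw [lp, lq] at h5
    rw [lp] at h6
    rw [lq] at h7
    have h8 : (p.2 < lineAt r s p.1 ↔ q.2 < lineAt r s q.1) := by
      constructor
      · intro h
        rcases lt_or_gt_of_ne h7 with h9 | h9
        · exact h9
        · exact absurd (h5.2 h9) (not_lt.2 h.le)
      · intro h
        rcases lt_or_gt_of_ne h6 with h9 | h9
        · exact h9
        · exact absurd (h5.1 h9) (not_lt.2 h.le)
    rw [ite_add_ite_iff h8, e2']; ring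
  · -- r < p < s < q
    rw [chi_left hpq h1, chi_between h2 h4, chi_between h1 h2, chi_right hrs h4, lt2_neg h1,
      lt2_pos h2, lt2_neg h3, lt2_neg h4, zero_add, add_zero]
    have h5 := hs h2.le le_rfl h4.le h1.le le_rfl
    have h6 := hn le_rfl hpq.le h1.le h2.le
    rw [lp, ls] at h5
    rw [lp] at h6
    rw [ite_add_ite_not (h5.symm.trans ⟨fun h => not_lt.2 h.le, fun h =>
      lt_of_le_of_ne (not_lt.1 h) (Ne.symm h6)⟩), e1]
  · exact absurd (h1.trans hpq) (not_lt.2 h3.le)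
  · exact absurd (h1.trans hpq) (not_lt.2 h3.le)
  · exact absurd (h2.trans hpq) (not_lt.2 h4.le)
  · -- r < s < p < q
    rw [chi_left hpq h1, chi_left hpq h2, chi_right hrs h2, chi_right hrs h4, lt2_neg h1,
      lt2_neg h2, lt2_neg h3, lt2_neg h4]
    ring

theorem crE_comm_left {p q : ℝ × ℝ} (h : p.1 ≠ q.1) (r s : ℝ × ℝ) :
    crE p q r s = crE q p r s := by
  unfold crE
  rw [chi_comm h r, chi_comm h s]
  ring

theorem crE_comm_right (p q : ℝ × ℝ) {r s : ℝ × ℝ} (h : r.1 ≠ s.1) :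
    crE p q r s = crE p q s r := by
  unfold crE
  rw [chi_comm h p, chi_comm h q]
  ring

/-- disjoint segments have crossing number zero -/
theorem crE_disjoint {p q r s : ℝ × ℝ} (hpq : p.1 ≠ q.1) (hrs : r.1 ≠ s.1) (hpr : p.1 ≠ r.1)
    (hps : p.1 ≠ s.1) (hqr : q.1 ≠ r.1) (hqs : q.1 ≠ s.1)
    (hd : Disjoint (segment ℝ p q) (segment ℝ r s)) : crE p q r s = 0 := by
  rcases lt_or_gt_of_ne hpq with h1 | h1 <;> rcases lt_or_gt_of_ne hrs with h2 | h2
  · exact crE_aux h1 h2 hpr hps hqr hqs hd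
  · rw [crE_comm_right p q hrs]
    rw [segment_symm ℝ r s] at hd
    exact crE_aux h1 h2 hps hpr hqs hqr hd
  · rw [crE_comm_left hpq]
    rw [segment_symm ℝ p q] at hd
    exact crE_aux h1 h2 hqr hqs hpr hps hd
  · rw [crE_comm_left hpq, crE_comm_right q p hrs]
    rw [segment_symm ℝ p q, segment_symm ℝ r s] at hd
    exact crE_aux h1 h2 hqs hqr hps hpr hd

end Vale.Agent.P305.H712
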